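import Mathlib

namespace Vale.Agent.Lib.P124

open Set

variable {X Y : Type*} [NormedAddCommGroup X] [NormedSpace ℝ X]
  [NormedAddCommGroup Y] [NormedSpace ℝ Y]

/-- lower bound for the linear part of an affine approximation of a coarsely co-Lipschitz map -/
theorem lower_bound (f : X → Y) {c δ : ℝ}
    (hco : ∀ x x', c * ‖x - x'‖ - δ ≤ ‖f x - f x'‖)
    (T : X →L[ℝ] Y) (y₀ : Y) (x₀ : X) {r η : ℝ} (hr : 0 < r)
    (happ : ∀ x, ‖x - x₀‖ ≤ r → ‖f x - (y₀ + T (x - x₀))‖ ≤ η) (v : X) :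
    (c - (δ + 2 * η) / (2 * r)) * ‖v‖ ≤ ‖T v‖ := by
  by_cases hv : v = 0
  · simp [hv]
  have hvn : 0 < ‖v‖ := norm_pos_iff.mpr hv
  set w : X := (r / ‖v‖) • v with hw
  have hwn : ‖w‖ = r := by
    rw [hw, norm_smul, Real.norm_eq_abs, abs_of_pos (div_pos hr hvn)]
    field_simp
  have h1 := happ (x₀ + w) (by simp [hwn])
  have h2 := happ (x₀ - w) (by simp [hwn])
  have h3 := hco (x₀ + w) (x₀ - w)
  have e1 : x₀ + w - (x₀ - w) = (2:ℝ) • w := by rw [two_smul]; abel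
  rw [e1, norm_smul, Real.norm_eq_abs, abs_of_pos (by norm_num : (0:ℝ) < 2), hwn] at h3
  have e2 : x₀ + w - x₀ = w := by abel
  have e3 : x₀ - w - x₀ = -w := by abel
  rw [e2] at h1
  rw [e3, map_neg] at h2
  have h4 : ‖f (x₀ + w) - f (x₀ - w)‖ ≤ ‖(2:ℝ) • T w‖ + 2 * η := by
    have : f (x₀ + w) - f (x₀ - w)
        = (2:ℝ) • T w + ((f (x₀ + w) - (y₀ + T w)) - (f (x₀ - w) - (y₀ + -T w))) := by
      rw [two_smul]; abel
    rw [this]
    calc ‖(2:ℝ) • T w + ((f (x₀ + w) - (y₀ + T w)) - (f (x₀ - w) - (y₀ + -T w)))‖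
        ≤ ‖(2:ℝ) • T w‖ + ‖(f (x₀ + w) - (y₀ + T w)) - (f (x₀ - w) - (y₀ + -T w))‖ :=
          norm_add_le _ _
      _ ≤ ‖(2:ℝ) • T w‖ + (‖f (x₀ + w) - (y₀ + T w)‖ + ‖f (x₀ - w) - (y₀ + -T w)‖) := by
          gcongr; exact norm_sub_le _ _
      _ ≤ ‖(2:ℝ) • T w‖ + 2 * η := by linarith
  rw [norm_smul, Real.norm_eq_abs, abs_of_pos (by norm_num : (0:ℝ) < 2)] at h4
  have h5 : c * r - δ / 2 - η ≤ ‖T w‖ := by linarith
  have h6 : ‖T w‖ = (r / ‖v‖) * ‖T v‖ := by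
    rw [hw, map_smul, norm_smul, Real.norm_eq_abs, abs_of_pos (div_pos hr hvn)]
  rw [h6] at h5
  have h7 : (c * r - δ / 2 - η) * ‖v‖ ≤ r * ‖T v‖ := by
    have := mul_le_mul_of_nonneg_right h5 hvn.le
    have e : r / ‖v‖ * ‖T v‖ * ‖v‖ = r * ‖T v‖ := by field_simp
    rwa [e] at this
  have h8 : (c - (δ + 2 * η) / (2 * r)) * ‖v‖ = (c * r - δ / 2 - η) * ‖v‖ / r := by
    field_simp
    ring
  rw [h8, div_le_iff₀ hr]
  linarith

/-- surjectivity of the linear part of an affine approximation -/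
theorem surjective_linear_part [CompleteSpace X] (f : X → Y) (hsurj : Function.Surjective f)
    {c δ : ℝ} (hc : 0 < c) (hδ : 0 ≤ δ)
    (hco : ∀ x x', c * ‖x - x'‖ - δ ≤ ‖f x - f x'‖)
    (T : X →L[ℝ] Y) (y₀ : Y) (x₀ : X) {r η : ℝ} (hr : 0 < r) (hη : 0 ≤ η)
    (hsmall : η + δ < c * r)
    (happ : ∀ x, ‖x - x₀‖ ≤ r → ‖f x - (y₀ + T (x - x₀))‖ ≤ η) :
    Function.Surjective T := by
  have hlow := lower_bound f hco T y₀ x₀ hr happ
  set k : ℝ := c - (δ + 2 * η) / (2 * r) with hk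
  have hkpos : 0 < k := by
    rw [hk, sub_pos, div_lt_iff₀ (by linarith)]
    nlinarith
  have hanti : AntilipschitzWith (Real.toNNReal k⁻¹) T := by
    apply ContinuousLinearMap.antilipschitz_of_bound
    intro x
    rw [Real.coe_toNNReal _ (inv_nonneg.mpr hkpos.le), inv_mul_eq_div, le_div_iff₀ hkpos]
    linarith [hlow x]
  have hclosed : IsClosed (Set.range T) := hanti.isClosed_range T.uniformContinuous
  by_contra hns
  have hex : ∃ y : Y, y ∉ LinearMap.range (T : X →ₗ[ℝ] Y) := by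
    by_contra hall
    push Not at hall
    exact hns (fun y => hall y)
  have hs : 0 < c * r - δ := by linarith
  set θ : ℝ := (η / (c * r - δ) + 1) / 2 with hθ
  have hq : η / (c * r - δ) < 1 := by rw [div_lt_one hs]; linarith
  have hθ1 : θ < 1 := by rw [hθ]; linarith
  have hθη : η < θ * (c * r - δ) := by
    have : η = η / (c * r - δ) * (c * r - δ) := by field_simp
    have h2 : η / (c * r - δ) < θ := by rw [hθ]; linarith
    calc η = η / (c * r - δ) * (c * r - δ) := this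
      _ < θ * (c * r - δ) := mul_lt_mul_of_pos_right h2 hs
  have hclosed' : IsClosed ((LinearMap.range (T : X →ₗ[ℝ] Y) : Subspace ℝ Y) : Set Y) := by
    have e : ((LinearMap.range (T : X →ₗ[ℝ] Y) : Subspace ℝ Y) : Set Y) = Set.range T := by
      ext y; simp
    rw [e]; exact hclosed
  obtain ⟨y, -, hy1, hyd⟩ := riesz_lemma_of_lt_one hclosed' hex hθ1
  set s : ℝ := c * r - δ with hsdef
  obtain ⟨x₁, hx₁⟩ := hsurj (f x₀ + s • y)
  obtain ⟨x₂, hx₂⟩ := hsurj (f x₀ - s • y)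
  have hn : ‖s • y‖ = s := by rw [norm_smul, hy1, mul_one, Real.norm_eq_abs, abs_of_pos hs]
  have hb1 : ‖x₁ - x₀‖ ≤ r := by
    have := hco x₁ x₀
    rw [hx₁, add_sub_cancel_left, hn] at this
    have h' : c * ‖x₁ - x₀‖ ≤ c * r := by linarith
    exact le_of_mul_le_mul_left h' hc
  have hb2 : ‖x₂ - x₀‖ ≤ r := by
    have := hco x₂ x₀
    rw [hx₂] at this
    have e : f x₀ - s • y - f x₀ = -(s • y) := by abel
    rw [e, norm_neg, hn] at this
    have h' : c * ‖x₂ - x₀‖ ≤ c * r := by linarith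
    exact le_of_mul_le_mul_left h' hc
  have a1 := happ x₁ hb1
  have a2 := happ x₂ hb2
  rw [hx₁] at a1
  rw [hx₂] at a2
  have hz : ((2:ℝ)⁻¹ * s⁻¹) • T (x₁ - x₂) ∈ LinearMap.range (T : X →ₗ[ℝ] Y) := by
    refine ⟨((2:ℝ)⁻¹ * s⁻¹) • (x₁ - x₂), ?_⟩
    simp
  have hd := hyd _ hz
  have hcomb : ‖(2:ℝ) • s • y - T (x₁ - x₂)‖ ≤ 2 * η := by
    have e : (2:ℝ) • s • y - T (x₁ - x₂)
        = (f x₀ + s • y - (y₀ + T (x₁ - x₀))) - (f x₀ - s • y - (y₀ + T (x₂ - x₀))) := by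
      have : x₁ - x₂ = (x₁ - x₀) - (x₂ - x₀) := by abel
      rw [this, map_sub, two_smul]; abel
    rw [e]
    calc _ ≤ ‖f x₀ + s • y - (y₀ + T (x₁ - x₀))‖ + ‖f x₀ - s • y - (y₀ + T (x₂ - x₀))‖ :=
          norm_sub_le _ _
      _ ≤ 2 * η := by linarith
  have hscale : y - ((2:ℝ)⁻¹ * s⁻¹) • T (x₁ - x₂)
      = ((2:ℝ)⁻¹ * s⁻¹) • ((2:ℝ) • s • y - T (x₁ - x₂)) := by
    rw [smul_sub, smul_smul, smul_smul]
    have : (2:ℝ)⁻¹ * s⁻¹ * 2 * s = 1 := by field_simp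
    rw [this, one_smul]
  rw [hscale, norm_smul, Real.norm_eq_abs,
    abs_of_pos (by positivity : (0:ℝ) < (2:ℝ)⁻¹ * s⁻¹)] at hd
  have hfin : θ ≤ (2:ℝ)⁻¹ * s⁻¹ * (2 * η) :=
    hd.trans (mul_le_mul_of_nonneg_left hcomb (by positivity))
  have : (2:ℝ)⁻¹ * s⁻¹ * (2 * η) = η / s := by field_simp
  rw [this, le_div_iff₀ hs] at hfin
  linarith

end Vale.Agent.Lib.P124

namespace Vale.Agent.Lib.P124

variable {X Y : Type*} [NormedAddCommGroup X] [NormedSpace ℝ X]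
  [NormedAddCommGroup Y] [NormedSpace ℝ Y]

/-- the linear part of a good affine approximation is a linear isomorphism -/
theorem affine_rigidity [CompleteSpace X] [CompleteSpace Y] (f : X → Y)
    (hsurj : Function.Surjective f)
    {c δ : ℝ} (hc : 0 < c) (hδ : 0 ≤ δ)
    (hco : ∀ x x', c * ‖x - x'‖ - δ ≤ ‖f x - f x'‖)
    (T : X →L[ℝ] Y) (y₀ : Y) (x₀ : X) {r η : ℝ} (hr : 0 < r) (hη : 0 ≤ η)
    (hsmall : η + δ < c * r)
    (happ : ∀ x, ‖x - x₀‖ ≤ r → ‖f x - (y₀ + T (x - x₀))‖ ≤ η) :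
    ∃ e : X ≃L[ℝ] Y, (e : X →L[ℝ] Y) = T := by
  have hlow := lower_bound f hco T y₀ x₀ hr happ
  have hkpos : 0 < c - (δ + 2 * η) / (2 * r) := by
    rw [sub_pos, div_lt_iff₀ (by linarith)]
    nlinarith
  have hsur := surjective_linear_part f hsurj hc hδ hco T y₀ x₀ hr hη hsmall happ
  have hinj : Function.Injective T := by
    rw [injective_iff_map_eq_zero]
    intro v hv
    have := hlow v
    rw [hv, norm_zero] at this
    have h0 : ‖v‖ ≤ 0 := by
      by_contra hpos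
      rw [not_le] at hpos
      have := mul_pos hkpos hpos
      linarith
    exact norm_le_zero_iff.mp h0
  refine ⟨ContinuousLinearEquiv.ofBijective T (LinearMap.ker_eq_bot.mpr hinj)
    (LinearMap.range_eq_top.mpr hsur), ?_⟩
  ext x
  rfl

/-- a bijection with Lipschitz inverse that is Frechet differentiable at one point has an
invertible derivative there -/
theorem frechet_point [CompleteSpace X] [CompleteSpace Y] (f : X ≃ Y) (K : NNReal)
    (hK : AntilipschitzWith K f) (x₀ : X) (T : X →L[ℝ] Y) (hT : HasFDerivAt f T x₀) :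
    ∃ e : X ≃L[ℝ] Y, (e : X →L[ℝ] Y) = T := by
  set c : ℝ := 1 / ((K:ℝ) + 1) with hcdef
  have hK0 : (0:ℝ) ≤ K := K.coe_nonneg
  have hc : 0 < c := by rw [hcdef]; positivity
  have hco : ∀ x x', c * ‖x - x'‖ - 0 ≤ ‖f x - f x'‖ := by
    intro x x'
    have h := hK.le_mul_dist x x'
    rw [dist_eq_norm, dist_eq_norm] at h
    have h2 : ‖x - x'‖ ≤ ((K:ℝ) + 1) * ‖f x - f x'‖ := by
      have := norm_nonneg (f x - f x')
      nlinarith
    rw [sub_zero, hcdef, one_div, inv_mul_le_iff₀ (by positivity)]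
    exact h2
  have hlo := hT.isLittleO
  have hev := hlo.def (half_pos hc)
  obtain ⟨ρ, hρ, hball⟩ := Metric.eventually_nhds_iff.mp hev
  have hr : 0 < ρ / 2 := half_pos hρ
  refine affine_rigidity f f.surjective hc le_rfl hco T (f x₀) x₀ hr
    (η := c / 2 * (ρ / 2)) (by positivity) ?_ ?_
  · have : 0 < c * (ρ / 2) := mul_pos hc hr
    linarith
  · intro x hx
    have hd : dist x x₀ < ρ := by rw [dist_eq_norm]; linarith
    have h := hball hd
    have e : f x - (f x₀ + T (x - x₀)) = f x - f x₀ - T (x - x₀) := by abel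
    rw [e]
    calc ‖f x - f x₀ - T (x - x₀)‖ ≤ c / 2 * ‖x - x₀‖ := h
      _ ≤ c / 2 * (ρ / 2) := mul_le_mul_of_nonneg_left hx (by positivity)

end Vale.Agent.Lib.P124
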